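import Vale.Agent.P048.Main

namespace Vale.Agent.Results.P048.Full

/-- The Ramsey number `R(H, J)`: the least `N` such that every red-blue colouring of the edges of
the complete graph on `N` vertices (red graph `G`, blue graph its complement) contains a red copy
of `H` or a blue copy of `J` (copies not necessarily induced). -/
noncomputable def ramseyNumber {α β : Type} (H : SimpleGraph α) (J : SimpleGraph β) : ℕ :=
  sInf {N : ℕ | ∀ G : SimpleGraph (Fin N), H.IsContained G ∨ J.IsContained (Compl.compl G)}

theorem result (m n : ℕ) (hn : 3 ≤ n) (hmn : n ≤ m) :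
    ramseyNumber (SimpleGraph.cycleGraph m) (SimpleGraph.completeGraph (Fin n)) =
      (m - 1) * (n - 1) + 1 ↔ (m, n) ≠ (3, 3) := by
  constructor
  · intro h e
    obtain ⟨rfl, rfl⟩ := Prod.mk.inj e
    have hne : {N : ℕ | ∀ G : SimpleGraph (Fin N), (SimpleGraph.cycleGraph 3).IsContained G ∨
        (SimpleGraph.completeGraph (Fin 3)).IsContained (Compl.compl G)}.Nonempty :=
      Nat.nonempty_of_pos_sInf (by unfold ramseyNumber at h; omega)
    have h5 := Nat.sInf_mem hne
    unfold ramseyNumber at h
    rw [h] at h5
    exact Vale.Agent.P048.five (h5 _)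
  · intro h
    have hm : 4 ≤ m := by
      by_contra hlt
      exact h (by rw [show m = 3 by omega, show n = 3 by omega])
    refine IsLeast.csInf_eq ⟨Vale.Agent.P048.upper hm (by omega) hmn, fun N hN => ?_⟩
    by_contra hlt
    obtain ⟨G, hG⟩ := Vale.Agent.P048.lower (m := m) (n := n) (N := N) (by omega) (by omega)
      (by omega)
    exact hG (hN G)

end Vale.Agent.Results.P048.Full
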